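import Mathlib

namespace Vale.Agent.Lib.P032

theorem zmod2_sq (z : ZMod 2) : z ^ 2 = z := by
  revert z; decide

theorem cast_den_ne_zero {x : ℚ} (hx : Odd x.den) : ((x.den : ℕ) : ZMod 2) ≠ 0 := by
  rw [(ZMod.natCast_eq_one_iff_odd).mpr hx]
  exact one_ne_zero

theorem cast_eq_num {x : ℚ} (hx : Odd x.den) : (x : ZMod 2) = (x.num : ZMod 2) := by
  rw [Rat.cast_def, (ZMod.natCast_eq_one_iff_odd).mpr hx, div_one]

/-- A rational point on the unit circle has odd denominators and coordinates of different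
parity. -/
theorem unit_vector_parity (x y : ℚ) (h : x ^ 2 + y ^ 2 = 1) :
    Odd x.den ∧ Odd y.den ∧ ((x : ZMod 2) + (y : ZMod 2) = 1) := by
  set p := x.num with hp
  set q := x.den with hq
  set r := y.num with hr
  set s := y.den with hs
  have hq0 : (q : ℚ) ≠ 0 := by exact_mod_cast x.den_nz
  have hs0 : (s : ℚ) ≠ 0 := by exact_mod_cast y.den_nz
  have hx : x = (p : ℚ) / q := (Rat.num_div_den x).symm
  have hy : y = (r : ℚ) / s := (Rat.num_div_den y).symm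
  have key : (p : ℚ) ^ 2 * s ^ 2 + r ^ 2 * q ^ 2 = q ^ 2 * s ^ 2 := by
    rw [hx, hy] at h
    field_simp at h
    linarith
  have keyZ : p ^ 2 * (s : ℤ) ^ 2 + r ^ 2 * (q : ℤ) ^ 2 = (q : ℤ) ^ 2 * (s : ℤ) ^ 2 := by
    exact_mod_cast key
  have hcop1 : IsCoprime ((q : ℤ) ^ 2) (p ^ 2) := by
    apply IsCoprime.pow
    rw [Int.isCoprime_iff_gcd_eq_one]
    have := x.reduced
    rw [Int.gcd_comm]
    exact this
  have hcop2 : IsCoprime ((s : ℤ) ^ 2) (r ^ 2) := by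
    apply IsCoprime.pow
    rw [Int.isCoprime_iff_gcd_eq_one]
    have := y.reduced
    rw [Int.gcd_comm]
    exact this
  have hd1 : ((q : ℤ) ^ 2) ∣ p ^ 2 * (s : ℤ) ^ 2 :=
    Dvd.intro ((s : ℤ) ^ 2 - r ^ 2) (by linear_combination -keyZ)
  have hd2 : ((s : ℤ) ^ 2) ∣ r ^ 2 * (q : ℤ) ^ 2 :=
    Dvd.intro ((q : ℤ) ^ 2 - p ^ 2) (by linear_combination -keyZ)
  have hqs : (q : ℤ) ∣ (s : ℤ) :=
    (Int.pow_dvd_pow_iff (two_ne_zero)).mp (hcop1.dvd_of_dvd_mul_left hd1)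
  have hsq : (s : ℤ) ∣ (q : ℤ) :=
    (Int.pow_dvd_pow_iff (two_ne_zero)).mp (hcop2.dvd_of_dvd_mul_left hd2)
  have heq : q = s :=
    Nat.dvd_antisymm (Int.natCast_dvd_natCast.mp hqs) (Int.natCast_dvd_natCast.mp hsq)
  have hq0' : (q : ℤ) ^ 2 ≠ 0 := by
    have : (q : ℤ) ≠ 0 := by exact_mod_cast x.den_nz
    positivity
  have hpr : p ^ 2 + r ^ 2 = (q : ℤ) ^ 2 := by
    have e : (p ^ 2 + r ^ 2) * (q : ℤ) ^ 2 = (q : ℤ) ^ 2 * (q : ℤ) ^ 2 := by
      rw [← heq] at keyZ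
      linear_combination keyZ
    exact mul_right_cancel₀ hq0' e
  have hqodd : Odd q := by
    by_contra hne
    have hqe : Even q := Nat.not_odd_iff_even.mp hne
    obtain ⟨c, hc⟩ := hqe
    have hpodd : Odd p := by
      by_contra hpe
      have hpe' : Even p := Int.not_odd_iff_even.mp hpe
      have h2p : 2 ∣ p.natAbs := by
        have : (2 : ℤ) ∣ p := even_iff_two_dvd.mp hpe'
        exact Int.natCast_dvd.mp this
      have h2q : 2 ∣ q := ⟨c, by omega⟩
      have := Nat.dvd_gcd h2p h2q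
      have hred : p.natAbs.gcd q = 1 := x.reduced
      rw [hred] at this
      omega
    have hrodd : Odd r := by
      by_contra hre
      have hre' : Even r := Int.not_odd_iff_even.mp hre
      have h2r : 2 ∣ r.natAbs := by
        have : (2 : ℤ) ∣ r := even_iff_two_dvd.mp hre'
        exact Int.natCast_dvd.mp this
      have h2s : 2 ∣ s := ⟨c, by omega⟩
      have := Nat.dvd_gcd h2r h2s
      have hred : r.natAbs.gcd s = 1 := y.reduced
      rw [hred] at this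
      omega
    obtain ⟨a, ha⟩ := hpodd
    obtain ⟨b, hb⟩ := hrodd
    have hqc : (q : ℤ) = 2 * c := by
      have : q = 2 * c := by omega
      exact_mod_cast this
    rw [ha, hb, hqc] at hpr
    have h2 : (2 : ℤ) = 4 * ((c : ℤ) ^ 2 - a ^ 2 - a - b ^ 2 - b) := by
      linear_combination hpr
    generalize ((c : ℤ) ^ 2 - a ^ 2 - a - b ^ 2 - b) = t at h2
    omega
  have hsodd : Odd s := heq ▸ hqodd
  refine ⟨hqodd, hsodd, ?_⟩
  rw [cast_eq_num hqodd, cast_eq_num hsodd]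
  have hcast : ((p ^ 2 + r ^ 2 : ℤ) : ZMod 2) = (((q : ℤ) ^ 2 : ℤ) : ZMod 2) := by rw [hpr]
  push_cast at hcast
  rw [zmod2_sq, zmod2_sq, zmod2_sq, (ZMod.natCast_eq_one_iff_odd).mpr hqodd] at hcast
  exact hcast

/-- Points of the rational plane with odd denominators. -/
def oddDen : AddSubgroup (ℚ × ℚ) where
  carrier := {P | Odd P.1.den ∧ Odd P.2.den}
  zero_mem' := by simp
  add_mem' := by
    rintro P Q ⟨h1, h2⟩ ⟨h3, h4⟩
    exact ⟨Odd.of_dvd_nat (h1.mul h3) (Rat.add_den_dvd P.1 Q.1),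
      Odd.of_dvd_nat (h2.mul h4) (Rat.add_den_dvd P.2 Q.2)⟩
  neg_mem' := by
    rintro P ⟨h1, h2⟩
    exact ⟨by simpa using h1, by simpa using h2⟩

/-- the parity functional on points with odd denominators (junk elsewhere). -/
noncomputable def par (P : ℚ × ℚ) : ZMod 2 := (P.1 : ZMod 2) + (P.2 : ZMod 2)

theorem par_add {P Q : ℚ × ℚ} (hP : P ∈ oddDen) (hQ : Q ∈ oddDen) :
    par (P + Q) = par P + par Q := by
  unfold par
  have e1 : ((P + Q).1 : ZMod 2) = (P.1 : ZMod 2) + (Q.1 : ZMod 2) :=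
    Rat.cast_add_of_ne_zero (cast_den_ne_zero hP.1) (cast_den_ne_zero hQ.1)
  have e2 : ((P + Q).2 : ZMod 2) = (P.2 : ZMod 2) + (Q.2 : ZMod 2) :=
    Rat.cast_add_of_ne_zero (cast_den_ne_zero hP.2) (cast_den_ne_zero hQ.2)
  rw [e1, e2]; ring

/-- a representative of the coset of `P` modulo `oddDen` -/
noncomputable def rep (P : ℚ × ℚ) : ℚ × ℚ := Quotient.out (P : (ℚ × ℚ) ⧸ oddDen)

theorem sub_rep_mem (P : ℚ × ℚ) : P - rep P ∈ oddDen := by
  have h1 : ((rep P : ℚ × ℚ) : (ℚ × ℚ) ⧸ oddDen) = (P : (ℚ × ℚ) ⧸ oddDen) :=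
    QuotientAddGroup.out_eq' _
  have h2 := QuotientAddGroup.eq.mp h1
  have : P - rep P = -rep P + P := by abel
  rw [this]; exact h2

theorem rep_eq {P Q : ℚ × ℚ} (h : P - Q ∈ oddDen) : rep P = rep Q := by
  have : (P : (ℚ × ℚ) ⧸ oddDen) = (Q : (ℚ × ℚ) ⧸ oddDen) := by
    rw [QuotientAddGroup.eq]
    have e : -P + Q = -(P - Q) := by abel
    rw [e]; exact neg_mem h
  simp only [rep, this]

/-- Woodall's colouring of the rational plane. -/
noncomputable def colour (P : ℚ × ℚ) : ZMod 2 := par (P - rep P)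

theorem colour_ne (P Q : ℚ × ℚ) (h : (P.1 - Q.1) ^ 2 + (P.2 - Q.2) ^ 2 = 1) :
    colour P ≠ colour Q := by
  obtain ⟨h1, h2, h3⟩ := unit_vector_parity (P.1 - Q.1) (P.2 - Q.2) h
  have hu : P - Q ∈ oddDen := ⟨h1, h2⟩
  have hpar : par (P - Q) = 1 := h3
  have hrep : rep P = rep Q := rep_eq hu
  have e : P - rep P = (Q - rep Q) + (P - Q) := by rw [hrep]; abel
  unfold colour
  rw [e, par_add (sub_rep_mem Q) hu, hpar]
  intro hc
  have : (1 : ZMod 2) = 0 := by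
    have := congrArg (fun z => z - par (Q - rep Q)) hc
    simp at this
  exact one_ne_zero this

end Vale.Agent.Lib.P032
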